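import Vale.Agent.P232.FullLower
import Vale.Agent.P232.Final
import Vale.Agent.P232.Upper
import Vale.Agent.P232U.MinAll
import Vale.Agent.P232U.UpAll

/-!
# P232: the isoperimetric profile and all isoperimetric sets of the cubic three-torus
-/

open MeasureTheory

namespace Vale.Agent.Results.P232.MinimizersAll

/-- The half-open unit cube `[0,1)^3`, a fundamental domain of the torus `ℝ^3 / ℤ^3`. -/
def unitCell : Set (Fin 3 → ℝ) := {x | ∀ i, 0 ≤ x i ∧ x i < 1}

/-- `E ⊆ ℝ^3` is invariant under translations in `ℤ^3`: it is a subset of the torus. -/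
def Invariant (E : Set (Fin 3 → ℝ)) : Prop :=
  ∀ (x : Fin 3 → ℝ) (k : Fin 3 → ℤ), (x + fun i => (k i : ℝ)) ∈ E ↔ x ∈ E

/-- A test field: a `C^1` vector field on the torus (that is, `ℤ^3`-periodic on `ℝ^3`) whose
Euclidean length is at most `1` everywhere. -/
structure TestField (φ : (Fin 3 → ℝ) → (Fin 3 → ℝ)) : Prop where
  contDiff : ContDiff ℝ 1 φ
  periodic : ∀ (x : Fin 3 → ℝ) (k : Fin 3 → ℤ), φ (x + fun i => (k i : ℝ)) = φ x
  length_le : ∀ x, ∑ i, (φ x i) ^ 2 ≤ 1

/-- The divergence of a vector field on `ℝ^3`. -/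
noncomputable def divergence (φ : (Fin 3 → ℝ) → (Fin 3 → ℝ)) (x : Fin 3 → ℝ) : ℝ :=
  ∑ i, fderiv ℝ φ x (Pi.single i 1) i

/-- The De Giorgi perimeter, in the torus, of an invariant set `E`: the supremum of
`∫_E div φ` over all test fields `φ`. -/
noncomputable def perimeter (E : Set (Fin 3 → ℝ)) : ENNReal :=
  ⨆ (φ : (Fin 3 → ℝ) → (Fin 3 → ℝ)) (_ : TestField φ),
    ENNReal.ofReal (∫ x in E ∩ unitCell, divergence φ x)

/-- The isoperimetric profile `I(V)` of the torus: the infimum of the perimeters of the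
measurable subsets of the torus of volume `V`. -/
noncomputable def profile (V : ℝ) : ENNReal :=
  ⨅ (E : Set (Fin 3 → ℝ)) (_ : MeasurableSet E) (_ : Invariant E)
    (_ : volume (E ∩ unitCell) = ENNReal.ofReal V), perimeter E

/-- The conjectured profile `J(V) = min {(36 π)^(1/3) v^(2/3), 2 √(π v), 2}` (balls, tubes,
slabs), where `v = min (V, 1 - V)`. -/
noncomputable def J (V : ℝ) : ℝ :=
  min (min ((36 * Real.pi) ^ (1 / 3 : ℝ) * (min V (1 - V)) ^ (2 / 3 : ℝ))
    (2 * Real.sqrt (Real.pi * min V (1 - V)))) 2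

/-- Distance from the real number `t` to the nearest integer, that is, the distance from
the class of `t` to `0` in the circle `ℝ / ℤ`. -/
noncomputable def circleDist (t : ℝ) : ℝ := |t - round t|

/-- The open geodesic ball with centre `m` and radius `R` in the torus. -/
def ball (m : Fin 3 → ℝ) (R : ℝ) : Set (Fin 3 → ℝ) :=
  {x | ∑ i, circleDist (x i - m i) ^ 2 < R ^ 2}

/-- The open solid tube of radius `R` about the shortest closed geodesic through `m` in the
coordinate direction `i`. -/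
def tube (m : Fin 3 → ℝ) (i : Fin 3) (R : ℝ) : Set (Fin 3 → ℝ) :=
  {x | ∑ j ∈ Finset.univ.erase i, circleDist (x j - m j) ^ 2 < R ^ 2}

/-- The slab `a ≤ x_i < a + v` (modulo `1`) between two parallel coordinate tori. -/
def slab (i : Fin 3) (a v : ℝ) : Set (Fin 3 → ℝ) := {x | Int.fract (x i - a) < v}

/-- The model regions of volume `v ≤ 1/2`: balls if `v ≤ 4 π / 81`, tubes if
`4 π / 81 ≤ v ≤ 1 / π`, slabs if `1 / π ≤ v`. -/
def IsModel (v : ℝ) (S : Set (Fin 3 → ℝ)) : Prop :=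
  (v ≤ 4 * Real.pi / 81 ∧ ∃ m, S = ball m ((3 * v / (4 * Real.pi)) ^ (1 / 3 : ℝ))) ∨
  (4 * Real.pi / 81 ≤ v ∧ v ≤ 1 / Real.pi ∧ ∃ m i, S = tube m i (Real.sqrt (v / Real.pi))) ∨
  (1 / Real.pi ≤ v ∧ ∃ i a, S = slab i a v)

/-- `E` and `F` are equal as subsets of the torus, up to a null set. -/
def AEEq (E F : Set (Fin 3 → ℝ)) : Prop := volume (symmDiff E F ∩ unitCell) = 0

theorem unitCell_eq : unitCell = Vale.Agent.P232.cell 3 := by
  ext x
  simp only [unitCell, Vale.Agent.P232.cell, Set.mem_ofPred_eq, Set.mem_pi, Set.mem_univ,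
    true_implies, Set.mem_Ico]

theorem perimeter_eq (E : Set (Fin 3 → ℝ)) :
    perimeter E = Vale.Agent.P232.perimeter E := by
  apply le_antisymm
  · unfold Vale.Agent.P232.perimeter perimeter
    refine iSup_le fun φ => iSup_le fun h => ?_
    refine le_iSup_of_le φ (le_iSup_of_le h.contDiff (le_iSup_of_le h.periodic
      (le_iSup_of_le h.length_le ?_)))
    rw [unitCell_eq]
    exact le_rfl
  · unfold Vale.Agent.P232.perimeter perimeter
    refine iSup_le fun φ => iSup_le fun h1 => iSup_le fun h2 => iSup_le fun h3 => ?_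
    refine le_iSup_of_le φ (le_iSup_of_le ⟨h1, h2, h3⟩ ?_)
    rw [unitCell_eq]
    exact le_rfl

theorem ball_eq (m : Fin 3 → ℝ) (R : ℝ) : ball m R = Vale.Agent.P232.ballT m R := rfl

theorem slab_eq (i : Fin 3) (a v : ℝ) : slab i a v = Vale.Agent.P232.slabT i a v := rfl

theorem tube_eq (m : Fin 3 → ℝ) (i : Fin 3) (R : ℝ) :
    tube m i R = Vale.Agent.P232.tubeT m i R := by
  ext x
  simp only [tube, Vale.Agent.P232.tubeT, Set.mem_ofPred_eq]
  have h : ∑ j ∈ Finset.univ.erase i, circleDist (x j - m j) ^ 2 =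
      ∑ j, (if j = i then 0 else Vale.Agent.P232.distS (x j - m j) ^ 2) := by
    rw [← Finset.sum_erase_add Finset.univ _ (Finset.mem_univ i), if_pos rfl, add_zero]
    refine Finset.sum_congr rfl fun j hj => ?_
    rw [if_neg (Finset.ne_of_mem_erase hj)]
    rfl
  rw [h]

theorem AEEq_iff (E F : Set (Fin 3 → ℝ)) : AEEq E F ↔ Vale.Agent.P232.AEq E F := by
  unfold AEEq Vale.Agent.P232.AEq
  rw [unitCell_eq]

theorem J_eq (V : ℝ) : J V = 2 * Vale.Agent.P232.Jh (min V (1 - V)) := by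
  rw [Vale.Agent.P232.two_Jh]
  rfl

/-- comparison of the three candidates -/
theorem ball_le_tube {v : ℝ} (hv : 0 < v) :
    (9 * Real.pi / 2) ^ (1 / 3 : ℝ) * v ^ (2 / 3 : ℝ) ≤ Real.sqrt (Real.pi * v) ↔
      v ≤ 4 * Real.pi / 81 := by
  have hpi := Real.pi_pos
  have hl : 0 ≤ (9 * Real.pi / 2) ^ (1 / 3 : ℝ) * v ^ (2 / 3 : ℝ) := by positivity
  have hr : 0 ≤ Real.sqrt (Real.pi * v) := Real.sqrt_nonneg _
  rw [← pow_le_pow_iff_left₀ hl hr (n := 6) (by norm_num)]
  have e1 : ((9 * Real.pi / 2) ^ (1 / 3 : ℝ) * v ^ (2 / 3 : ℝ)) ^ 6 =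
      (9 * Real.pi / 2) ^ 2 * v ^ 4 := by
    rw [mul_pow, ← Real.rpow_natCast, ← Real.rpow_natCast, ← Real.rpow_mul (by positivity),
      ← Real.rpow_mul hv.le]
    norm_num
  have e2 : Real.sqrt (Real.pi * v) ^ 6 = Real.pi ^ 3 * v ^ 3 := by
    rw [show (6 : ℕ) = 2 * 3 by norm_num, pow_mul, Real.sq_sqrt (by positivity)]
    ring
  rw [e1, e2]
  have h3 : 0 < v ^ 3 * Real.pi ^ 2 := by positivity
  constructor
  · intro h
    have h4 : (v ^ 3 * Real.pi ^ 2) * (81 * v) ≤ (v ^ 3 * Real.pi ^ 2) * (4 * Real.pi) := by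
      nlinarith
    have h5 := le_of_mul_le_mul_left h4 h3
    rw [le_div_iff₀ (by norm_num)]
    linarith
  · intro h
    rw [le_div_iff₀ (by norm_num)] at h
    have h4 := mul_le_mul_of_nonneg_left h h3.le
    nlinarith

theorem tube_le_slab {v : ℝ} :
    Real.sqrt (Real.pi * v) ≤ 1 ↔ v ≤ 1 / Real.pi := by
  have hpi := Real.pi_pos
  rw [Real.sqrt_le_one, le_div_iff₀ hpi, mul_comm]

theorem slab_le_tube {v : ℝ} :
    1 ≤ Real.sqrt (Real.pi * v) ↔ 1 / Real.pi ≤ v := by
  have hpi := Real.pi_pos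
  rw [Real.one_le_sqrt, div_le_iff₀ hpi, mul_comm]

theorem tube_strict {v : ℝ} (hv : 0 < v) (h : v < 4 * Real.pi / 81) :
    (9 * Real.pi / 2) ^ (1 / 3 : ℝ) * v ^ (2 / 3 : ℝ) < Real.sqrt (Real.pi * v) := by
  have hpi := Real.pi_pos
  have hl : 0 ≤ (9 * Real.pi / 2) ^ (1 / 3 : ℝ) * v ^ (2 / 3 : ℝ) := by positivity
  have hr : 0 ≤ Real.sqrt (Real.pi * v) := Real.sqrt_nonneg _
  rw [← pow_lt_pow_iff_left₀ hl hr (n := 6) (by norm_num)]
  have e1 : ((9 * Real.pi / 2) ^ (1 / 3 : ℝ) * v ^ (2 / 3 : ℝ)) ^ 6 =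
      (9 * Real.pi / 2) ^ 2 * v ^ 4 := by
    rw [mul_pow, ← Real.rpow_natCast, ← Real.rpow_natCast, ← Real.rpow_mul (by positivity),
      ← Real.rpow_mul hv.le]
    norm_num
  have e2 : Real.sqrt (Real.pi * v) ^ 6 = Real.pi ^ 3 * v ^ 3 := by
    rw [show (6 : ℕ) = 2 * 3 by norm_num, pow_mul, Real.sq_sqrt (by positivity)]
    ring
  rw [e1, e2]
  have h3 : 0 < v ^ 3 * Real.pi ^ 2 := by positivity
  rw [lt_div_iff₀ (by norm_num)] at h
  have h4 := mul_lt_mul_of_pos_left h h3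
  nlinarith

theorem tube_le_ball {v : ℝ} (hv : 0 < v) (h : 4 * Real.pi / 81 ≤ v) :
    Real.sqrt (Real.pi * v) ≤ (9 * Real.pi / 2) ^ (1 / 3 : ℝ) * v ^ (2 / 3 : ℝ) := by
  rcases h.eq_or_lt with h | h
  · -- equality
    have hpi := Real.pi_pos
    have hl : 0 ≤ (9 * Real.pi / 2) ^ (1 / 3 : ℝ) * v ^ (2 / 3 : ℝ) := by positivity
    have hr : 0 ≤ Real.sqrt (Real.pi * v) := Real.sqrt_nonneg _
    rw [← pow_le_pow_iff_left₀ hr hl (n := 6) (by norm_num)]
    have e1 : ((9 * Real.pi / 2) ^ (1 / 3 : ℝ) * v ^ (2 / 3 : ℝ)) ^ 6 =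
        (9 * Real.pi / 2) ^ 2 * v ^ 4 := by
      rw [mul_pow, ← Real.rpow_natCast, ← Real.rpow_natCast, ← Real.rpow_mul (by positivity),
        ← Real.rpow_mul hv.le]
      norm_num
    have e2 : Real.sqrt (Real.pi * v) ^ 6 = Real.pi ^ 3 * v ^ 3 := by
      rw [show (6 : ℕ) = 2 * 3 by norm_num, pow_mul, Real.sq_sqrt (by positivity)]
      ring
    rw [e1, e2, ← h]
    refine le_of_eq ?_
    ring
  · by_contra hc
    rw [not_le] at hc
    exact absurd ((ball_le_tube hv).1 hc.le) (not_le.2 h)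

theorem Jh_ball {v : ℝ} (hv : 0 < v) (h : v ≤ 4 * Real.pi / 81) :
    Vale.Agent.P232.Jh v = (9 * Real.pi / 2) ^ (1 / 3 : ℝ) * v ^ (2 / 3 : ℝ) := by
  have hpi := Real.pi_pos
  have h1 := (ball_le_tube hv).2 h
  have h2 : v ≤ 1 / Real.pi := by
    refine h.trans ?_
    rw [div_le_div_iff₀ (by norm_num) hpi]
    have := Real.pi_lt_four
    nlinarith
  have h3 := tube_le_slab.2 h2
  unfold Vale.Agent.P232.Jh
  rw [min_eq_left h1, min_eq_left (h1.trans h3)]

theorem Jh_tube {v : ℝ} (hv : 0 < v) (h : 4 * Real.pi / 81 ≤ v) (h' : v ≤ 1 / Real.pi) :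
    Vale.Agent.P232.Jh v = Real.sqrt (Real.pi * v) := by
  unfold Vale.Agent.P232.Jh
  rw [min_eq_right (tube_le_ball hv h), min_eq_left (tube_le_slab.2 h')]

theorem Jh_slab {v : ℝ} (hv : 0 < v) (h : 1 / Real.pi ≤ v) : Vale.Agent.P232.Jh v = 1 := by
  have hpi := Real.pi_pos
  have h2 : 4 * Real.pi / 81 ≤ v := by
    refine le_trans ?_ h
    rw [div_le_div_iff₀ (by norm_num) hpi]
    have := Real.pi_lt_four
    nlinarith
  unfold Vale.Agent.P232.Jh
  rw [min_eq_right (tube_le_ball hv h2), min_eq_right (slab_le_tube.2 h)]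

theorem ball_radius {v : ℝ} (hv : 0 < v) :
    4 * Real.pi * ((3 * v / (4 * Real.pi)) ^ (1 / 3 : ℝ)) ^ 2 =
      2 * ((9 * Real.pi / 2) ^ (1 / 3 : ℝ) * v ^ (2 / 3 : ℝ)) := by
  have hpi := Real.pi_pos
  have hl : 0 ≤ 4 * Real.pi * ((3 * v / (4 * Real.pi)) ^ (1 / 3 : ℝ)) ^ 2 := by positivity
  have hr : 0 ≤ 2 * ((9 * Real.pi / 2) ^ (1 / 3 : ℝ) * v ^ (2 / 3 : ℝ)) := by positivity
  rw [← pow_left_inj₀ hl hr (n := 3) (by norm_num)]
  have e1 : (4 * Real.pi * ((3 * v / (4 * Real.pi)) ^ (1 / 3 : ℝ)) ^ 2) ^ 3 =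
      (4 * Real.pi) ^ 3 * (3 * v / (4 * Real.pi)) ^ 2 := by
    rw [mul_pow, ← pow_mul, ← Real.rpow_natCast (_ ^ (1 / 3 : ℝ)), ← Real.rpow_mul (by positivity)]
    norm_num
  have e2 : (2 * ((9 * Real.pi / 2) ^ (1 / 3 : ℝ) * v ^ (2 / 3 : ℝ))) ^ 3 =
      8 * ((9 * Real.pi / 2) * v ^ 2) := by
    rw [mul_pow, mul_pow, ← Real.rpow_natCast (_ ^ (1 / 3 : ℝ)), ← Real.rpow_mul (by positivity),
      ← Real.rpow_natCast (_ ^ (2 / 3 : ℝ)), ← Real.rpow_mul hv.le]
    norm_num
  rw [e1, e2]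
  field_simp
  ring

theorem model_facts {v : ℝ} (hv : 0 < v) (hv1 : v ≤ 1 / 2) {S : Set (Fin 3 → ℝ)}
    (hS : IsModel v S) : MeasurableSet S ∧
      Vale.Agent.P232.perimeter S ≤ ENNReal.ofReal (2 * Vale.Agent.P232.Jh v) := by
  have hpi := Real.pi_pos
  rcases hS with ⟨h, m, rfl⟩ | ⟨h, h', m, i, rfl⟩ | ⟨h, i, a, rfl⟩
  · rw [ball_eq, Jh_ball hv h]
    refine ⟨Vale.Agent.P232.ballT_meas _ _, ?_⟩
    have hR0 : 0 < (3 * v / (4 * Real.pi)) ^ (1 / 3 : ℝ) := by positivity
    have hR1 : (3 * v / (4 * Real.pi)) ^ (1 / 3 : ℝ) < 1 / 2 := by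
      have h1 : 3 * v / (4 * Real.pi) ≤ 1 / 27 := by
        rw [div_le_div_iff₀ (by positivity) (by norm_num)]
        rw [le_div_iff₀ (by norm_num)] at h
        linarith
      have h2 : (3 * v / (4 * Real.pi)) ^ (1 / 3 : ℝ) ≤ (1 / 27 : ℝ) ^ (1 / 3 : ℝ) :=
        Real.rpow_le_rpow (by positivity) h1 (by norm_num)
      have h3 : (1 / 27 : ℝ) ^ (1 / 3 : ℝ) = 1 / 3 := by
        rw [show (1 / 27 : ℝ) = (1 / 3) ^ (3 : ℝ) by norm_num, ← Real.rpow_mul (by norm_num)]
        norm_num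
      linarith
    have h := Vale.Agent.P232.ballT_perimeter m hR0 hR1
    rwa [ball_radius hv] at h
  · rw [tube_eq, Jh_tube hv h h']
    refine ⟨Vale.Agent.P232.tubeT_meas _ _ _, ?_⟩
    have hR0 : 0 < Real.sqrt (v / Real.pi) := by positivity
    have hR1 : Real.sqrt (v / Real.pi) < 1 / 2 := by
      rw [Real.sqrt_lt' (by norm_num)]
      rw [div_lt_iff₀ hpi]
      have := Real.pi_gt_three
      linarith
    have h5 : Real.sqrt (Real.pi * v) = Real.sqrt (v / Real.pi) * Real.pi := by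
      rw [show Real.pi * v = (v / Real.pi) * Real.pi ^ 2 by field_simp,
        Real.sqrt_mul (by positivity), Real.sqrt_sq hpi.le]
    have h6 := Vale.Agent.P232.tubeT_perimeter m i hR0 hR1
    rw [h5]
    refine h6.trans (le_of_eq ?_)
    congr 1
    ring
  · rw [slab_eq, Jh_slab hv h]
    refine ⟨Vale.Agent.P232.slabT_meas _ _ _, ?_⟩
    have h6 := Vale.Agent.P232.slabT_perimeter i a hv (by linarith)
    rwa [mul_one]

theorem profile_eq {V : ℝ} (hV0 : 0 < V) (hV1 : V < 1) : profile V = ENNReal.ofReal (J V) := by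
  apply le_antisymm
  · obtain ⟨E, hE, hper, hvol, hP⟩ := Vale.Agent.P232.upper_all hV0 hV1
    unfold profile
    refine iInf_le_of_le E (iInf_le_of_le hE (iInf_le_of_le hper (iInf_le_of_le ?_ ?_)))
    · rw [unitCell_eq]
      exact hvol
    · rw [perimeter_eq, J_eq]
      exact hP
  · unfold profile
    refine le_iInf fun E => le_iInf fun hE => le_iInf fun hper => le_iInf fun hvol => ?_
    have hvr : (volume (E ∩ Vale.Agent.P232.cell 3)).toReal = V := by
      rw [← unitCell_eq, hvol, ENNReal.toReal_ofReal hV0.le]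
    have h := Vale.Agent.P232.full_lower hE hper (v := min V (1 - V)) (by rw [hvr])
      (lt_min hV0 (by linarith))
    rw [perimeter_eq, J_eq]
    exact h

theorem compl_vol {E : Set (Fin 3 → ℝ)} (hE : MeasurableSet E) {V : ℝ}
    (hvol : Vale.Agent.P232.vol E = V) : Vale.Agent.P232.vol Eᶜ = 1 - V := by
  unfold Vale.Agent.P232.vol at hvol ⊢
  have hc : volume (Vale.Agent.P232.cell 3) = 1 := by
    unfold Vale.Agent.P232.cell
    rw [Real.volume_pi_Ico]
    simp
  have hcm : MeasurableSet (Vale.Agent.P232.cell 3) := by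
    unfold Vale.Agent.P232.cell
    exact MeasurableSet.univ_pi fun _ => measurableSet_Ico
  have h1 : volume (Eᶜ ∩ Vale.Agent.P232.cell 3) =
      volume (Vale.Agent.P232.cell 3) - volume (E ∩ Vale.Agent.P232.cell 3) := by
    rw [← measure_sdiff Set.inter_subset_right ((hE.inter hcm).nullMeasurableSet)
      (ne_top_of_le_ne_top (by rw [hc]; exact ENNReal.one_ne_top)
        (measure_mono Set.inter_subset_right))]
    congr 1
    ext x
    simp only [Set.mem_inter_iff, Set.mem_compl_iff, Set.mem_sdiff]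
    tauto
  have h2 : volume (E ∩ Vale.Agent.P232.cell 3) ≤ 1 := by
    rw [← hc]
    exact measure_mono Set.inter_subset_right
  rw [h1, hc, ENNReal.toReal_sub_of_le h2 ENNReal.one_ne_top, hvol]
  rfl

theorem forward {E : Set (Fin 3 → ℝ)} (hE : MeasurableSet E) (hper : Invariant E)
    (h0 : 0 < Vale.Agent.P232.vol E) (h1 : Vale.Agent.P232.vol E ≤ 1 / 2)
    (hP : Vale.Agent.P232.perimeter E =
      ENNReal.ofReal (2 * Vale.Agent.P232.Jh (Vale.Agent.P232.vol E))) :
    ∃ S, IsModel (Vale.Agent.P232.vol E) S ∧ AEEq E S := by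
  have hpi := Real.pi_pos
  rcases Vale.Agent.P232.minimizers2 hE hper h0 h1 hP with ⟨h, m, hm⟩ | ⟨h, m, i, hm⟩ | ⟨h, i, a, hm⟩
  · refine ⟨_, Or.inl ⟨?_, m, rfl⟩, ?_⟩
    · rw [← ball_le_tube h0, ← h]
      unfold Vale.Agent.P232.Jh
      exact (min_le_left _ _).trans (min_le_right _ _)
    · rw [AEEq_iff]; exact hm
  · refine ⟨_, Or.inr (Or.inl ⟨?_, ?_, m, i, rfl⟩), ?_⟩
    · by_contra hc
      rw [not_le] at hc
      have h2 := Jh_ball h0 hc.le
      have h3 := tube_strict h0 hc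
      rw [h] at h2
      linarith
    · rw [← tube_le_slab, ← h]
      unfold Vale.Agent.P232.Jh
      exact min_le_right _ _
    · rw [AEEq_iff, tube_eq]; exact hm
  · refine ⟨_, Or.inr (Or.inr ⟨?_, i, a, rfl⟩), ?_⟩
    · rw [← slab_le_tube, ← h]
      unfold Vale.Agent.P232.Jh
      exact (min_le_left _ _).trans (min_le_right _ _)
    · rw [AEEq_iff]; exact hm

/-- **The isoperimetric problem in the cubic three-torus.** For `0 < V < 1`: the
isoperimetric profile is `I(V) = J(V)`; it is attained; and a measurable set `E` of volume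
`V` has perimeter `I(V)` if and only if, up to a null set, `E` or its complement is a model
region of volume `v = min (V, 1 - V)`: a ball if `v ≤ 4 π / 81`, a tube if
`4 π / 81 ≤ v ≤ 1 / π`, a slab if `1 / π ≤ v`. -/
theorem result (V : ℝ) (hV0 : 0 < V) (hV1 : V < 1) :
    profile V = ENNReal.ofReal (J V) ∧
    (∃ E : Set (Fin 3 → ℝ), MeasurableSet E ∧ Invariant E ∧
      volume (E ∩ unitCell) = ENNReal.ofReal V ∧ perimeter E = profile V) ∧
    ∀ E : Set (Fin 3 → ℝ), MeasurableSet E → Invariant E →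
      volume (E ∩ unitCell) = ENNReal.ofReal V →
      (perimeter E = profile V ↔
        ∃ S, IsModel (min V (1 - V)) S ∧ (AEEq E S ∨ AEEq Eᶜ S)) := by
  have hprof := profile_eq hV0 hV1
  refine ⟨hprof, ?_, ?_⟩
  · obtain ⟨E, hE, hper, hvol, hP⟩ := Vale.Agent.P232.upper_all hV0 hV1
    refine ⟨E, hE, hper, by rw [unitCell_eq]; exact hvol, le_antisymm ?_ ?_⟩
    · rw [hprof, perimeter_eq, J_eq]
      exact hP
    · unfold profile
      exact iInf_le_of_le E (iInf_le_of_le hE (iInf_le_of_le hper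
        (iInf_le_of_le (by rw [unitCell_eq]; exact hvol) le_rfl)))
  · intro E hE hper hvol
    have hv0 : 0 < min V (1 - V) := lt_min hV0 (by linarith)
    have hvE : Vale.Agent.P232.vol E = V := by
      unfold Vale.Agent.P232.vol
      rw [← unitCell_eq, hvol, ENNReal.toReal_ofReal hV0.le]
    have hcp : Vale.Agent.P232.perimeter Eᶜ = Vale.Agent.P232.perimeter E := by
      refine le_antisymm (Vale.Agent.P232.up_compl hE) ?_
      have := Vale.Agent.P232.up_compl hE.compl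
      rwa [compl_compl] at this
    have hinvc : Invariant Eᶜ := fun x k => not_congr (hper x k)
    have hvEc := compl_vol hE hvE
    constructor
    · intro hP
      rw [hprof, perimeter_eq, J_eq] at hP
      rcases le_total V (1 - V) with h | h
      · rw [min_eq_left h] at hP ⊢
        obtain ⟨S, hS, hES⟩ := forward hE hper (by rw [hvE]; exact hV0)
          (by rw [hvE]; linarith) (by rw [hvE]; exact hP)
        rw [hvE] at hS
        exact ⟨S, hS, Or.inl hES⟩
      · rw [min_eq_right h] at hP ⊢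
        obtain ⟨S, hS, hES⟩ := forward hE.compl hinvc (by rw [hvEc]; linarith)
          (by rw [hvEc]; linarith) (by rw [hvEc, hcp]; exact hP)
        rw [hvEc] at hS
        exact ⟨S, hS, Or.inr hES⟩
    · rintro ⟨S, hS, hES⟩
      obtain ⟨hSm, hSP⟩ := model_facts hv0 (by
        rcases le_total V (1 - V) with h | h
        · rw [min_eq_left h]; linarith
        · rw [min_eq_right h]; linarith) hS
      have hPE : Vale.Agent.P232.perimeter E = Vale.Agent.P232.perimeter S := by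
        rcases hES with h | h
        · exact Vale.Agent.P232.perimeter_congr ((AEEq_iff _ _).1 h)
        · rw [← hcp]
          exact Vale.Agent.P232.perimeter_congr ((AEEq_iff _ _).1 h)
      apply le_antisymm
      · rw [hprof, perimeter_eq, J_eq, hPE]
        exact hSP
      · unfold profile
        exact iInf_le_of_le E (iInf_le_of_le hE (iInf_le_of_le hper
          (iInf_le_of_le hvol le_rfl)))

end Vale.Agent.Results.P232.MinimizersAll
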