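import Vale.Agent.P232.Final
import Vale.Agent.P232.Upper

/-!
# P232: the isoperimetric profile of the cubic three-torus in two volume ranges
-/

open MeasureTheory

namespace Vale.Agent.Results.P232.ProfileRanges

/-- The half-open unit cube `[0,1)^3`, a fundamental domain of the torus `ℝ^3 / ℤ^3`. -/
def unitCell : Set (Fin 3 → ℝ) := {x | ∀ i, 0 ≤ x i ∧ x i < 1}

/-- `E ⊆ ℝ^3` is invariant under translations in `ℤ^3`: it is a subset of the torus. -/
def Invariant (E : Set (Fin 3 → ℝ)) : Prop :=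
  ∀ (x : Fin 3 → ℝ) (k : Fin 3 → ℤ), (x + fun i => (k i : ℝ)) ∈ E ↔ x ∈ E

/-- A test field: a `C^1` vector field on the torus (that is, `ℤ^3`-periodic on `ℝ^3`) whose
Euclidean length is at most `1` everywhere. -/
structure TestField (φ : (Fin 3 → ℝ) → (Fin 3 → ℝ)) : Prop where
  contDiff : ContDiff ℝ 1 φ
  periodic : ∀ (x : Fin 3 → ℝ) (k : Fin 3 → ℤ), φ (x + fun i => (k i : ℝ)) = φ x
  length_le : ∀ x, ∑ i, (φ x i) ^ 2 ≤ 1

/-- The divergence of a vector field on `ℝ^3`. -/
noncomputable def divergence (φ : (Fin 3 → ℝ) → (Fin 3 → ℝ)) (x : Fin 3 → ℝ) : ℝ :=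
  ∑ i, fderiv ℝ φ x (Pi.single i 1) i

/-- The De Giorgi perimeter, in the torus, of an invariant set `E`: the supremum of
`∫_E div φ` over all test fields `φ`. -/
noncomputable def perimeter (E : Set (Fin 3 → ℝ)) : ENNReal :=
  ⨆ (φ : (Fin 3 → ℝ) → (Fin 3 → ℝ)) (_ : TestField φ),
    ENNReal.ofReal (∫ x in E ∩ unitCell, divergence φ x)

/-- The isoperimetric profile `I(V)` of the torus: the infimum of the perimeters of the
measurable subsets of the torus of volume `V`. -/
noncomputable def profile (V : ℝ) : ENNReal :=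
  ⨅ (E : Set (Fin 3 → ℝ)) (_ : MeasurableSet E) (_ : Invariant E)
    (_ : volume (E ∩ unitCell) = ENNReal.ofReal V), perimeter E

/-- The conjectured profile `J(V) = min {(36 π)^(1/3) v^(2/3), 2 √(π v), 2}` (balls, tubes,
slabs), where `v = min (V, 1 - V)`. -/
noncomputable def J (V : ℝ) : ℝ :=
  min (min ((36 * Real.pi) ^ (1 / 3 : ℝ) * (min V (1 - V)) ^ (2 / 3 : ℝ))
    (2 * Real.sqrt (Real.pi * min V (1 - V)))) 2

theorem unitCell_eq : unitCell = Vale.Agent.P232.cell 3 := by
  ext x
  simp only [unitCell, Vale.Agent.P232.cell, Set.mem_ofPred_eq, Set.mem_pi, Set.mem_univ,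
    true_implies, Set.mem_Ico]

theorem perimeter_eq (E : Set (Fin 3 → ℝ)) :
    perimeter E = Vale.Agent.P232.perimeter E := by
  apply le_antisymm
  · unfold Vale.Agent.P232.perimeter perimeter
    refine iSup_le fun φ => iSup_le fun h => ?_
    refine le_iSup_of_le φ (le_iSup_of_le h.contDiff (le_iSup_of_le h.periodic
      (le_iSup_of_le h.length_le ?_)))
    rw [unitCell_eq]
    exact le_rfl
  · unfold Vale.Agent.P232.perimeter perimeter
    refine iSup_le fun φ => iSup_le fun h1 => iSup_le fun h2 => iSup_le fun h3 => ?_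
    refine le_iSup_of_le φ (le_iSup_of_le ⟨h1, h2, h3⟩ ?_)
    rw [unitCell_eq]
    exact le_rfl

/-- `I(V) = J(V)` in the three-torus, whenever `v = min (V, 1 - V)` satisfies
`0.12 ≤ v ≤ 0.264` or `0.36 ≤ v` (`≤ 1/2`). -/
theorem result (V : ℝ)
    (hV : (0.12 ≤ min V (1 - V) ∧ min V (1 - V) ≤ 0.264) ∨ 0.36 ≤ min V (1 - V)) :
    profile V = ENNReal.ofReal (J V) := by
  have hv0 : 0 < min V (1 - V) := by
    rcases hV with h | h
    · have := h.1
      norm_num at this ⊢
      constructor <;> linarith [this.1, this.2]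
    · norm_num at h ⊢
      constructor <;> linarith [h.1, h.2]
  have hV0 : 0 < V := lt_of_lt_of_le hv0 (min_le_left _ _)
  have hV1 : V < 1 := by
    have := lt_of_lt_of_le hv0 (min_le_right V (1 - V))
    linarith
  apply le_antisymm
  · obtain ⟨E, hE, hper, hvol, hP⟩ := Vale.Agent.P232.upper_all hV0 hV1
    unfold profile
    refine iInf_le_of_le E (iInf_le_of_le hE (iInf_le_of_le hper (iInf_le_of_le ?_ ?_)))
    · rw [unitCell_eq]
      exact hvol
    · rw [perimeter_eq]
      rw [Vale.Agent.P232.two_Jh] at hP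
      exact hP
  · unfold profile
    refine le_iInf fun E => le_iInf fun hE => le_iInf fun hper => le_iInf fun hvol => ?_
    have hvr : (volume (E ∩ Vale.Agent.P232.cell 3)).toReal = V := by
      rw [← unitCell_eq, hvol, ENNReal.toReal_ofReal hV0.le]
    have hmin : min V (1 - V) ≤ 0.5 := by
      rcases le_total V 0.5 with h | h
      · exact (min_le_left _ _).trans h
      · refine (min_le_right _ _).trans ?_
        norm_num at h ⊢
        linarith
    have h := Vale.Agent.P232.final hE hper (v := min V (1 - V)) (by rw [hvr])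
      (hV.imp (fun h => ⟨h.1, h.2⟩) (fun h => ⟨h, hmin⟩))
    rw [Vale.Agent.P232.two_Jh] at h
    rw [perimeter_eq]
    exact h

end Vale.Agent.Results.P232.ProfileRanges
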